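import Vale.Agent.P369.Defs

namespace Vale.Agent.P369

open Real

theorem g_sub_one_eq_integral (t : ℝ) : g t - 1 = ∫ x in t..(t + 1), Real.log x := by
  rw [integral_log]
  unfold g
  ring

theorem g_upper (t : ℝ) (ht : 0 ≤ t) : g t - 1 ≤ Real.log (t + 1 / 2) := by
  rw [g_sub_one_eq_integral]
  set m := t + 1 / 2 with hm
  have hm0 : 0 < m := by positivity
  have h1 : ∫ x in t..(t + 1), Real.log x ≤ ∫ x in t..(t + 1), ((Real.log m - 1) + (1 / m) * x) := by
    apply intervalIntegral.integral_mono_on_of_le_Ioo (by linarith)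
      intervalIntegral.intervalIntegrable_log'
    · apply Continuous.intervalIntegrable
      fun_prop
    · intro x hx
      have hx0 : 0 < x := by linarith [hx.1]
      have h2 := Real.log_le_sub_one_of_pos (div_pos hx0 hm0)
      rw [Real.log_div hx0.ne' hm0.ne'] at h2
      have h3 : 1 / m * x = x / m := by ring
      linarith
  have h2 : ∫ x in t..(t + 1), ((Real.log m - 1) + (1 / m) * x) = Real.log m := by
    rw [intervalIntegral.integral_add (by simp) (by
      apply Continuous.intervalIntegrable
      fun_prop), intervalIntegral.integral_const, intervalIntegral.integral_const_mul, integral_id]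
    simp only [smul_eq_mul]
    rw [hm]
    field_simp
    ring
  linarith

theorem g_lower (t : ℝ) (ht : 0 ≤ t) : Real.log (t + Real.exp (-1)) ≤ g t - 1 := by
  rw [g_sub_one_eq_integral]
  set c := Real.exp (-1) with hc
  have hc0 : 0 < c := Real.exp_pos _
  have hlogc : Real.log c = -1 := Real.log_exp _
  have htc : 0 < t + c := by positivity
  have h0 : ∫ x in t..(t + 1), Real.log x = ∫ s in (0 : ℝ)..1, Real.log (t + s) := by
    rw [intervalIntegral.integral_comp_add_left (fun x => Real.log x) t]
    simp
  rw [h0]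
  set lam := t / (t + c) with hlam
  have hlam0 : 0 ≤ lam := by positivity
  have hlam1 : 1 - lam = c / (t + c) := by
    rw [hlam]
    field_simp
    ring
  have hlam1' : 0 ≤ 1 - lam := by
    rw [hlam1]
    positivity
  have h1 : ∫ s in (0 : ℝ)..1, ((Real.log (t + c) + (1 - lam)) + (1 - lam) * Real.log s) ≤
      ∫ s in (0 : ℝ)..1, Real.log (t + s) := by
    apply intervalIntegral.integral_mono_on_of_le_Ioo (by norm_num)
    · apply IntervalIntegrable.add (by simp)
      exact intervalIntegral.intervalIntegrable_log'.const_mul _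
    · have := (intervalIntegral.intervalIntegrable_log' (a := t + 0) (b := t + 1)).comp_add_left t
      simpa using this
    · intro s hs
      have hs0 : 0 < s := hs.1
      have hy : 0 < s * (t + c) / c := by positivity
      have hconc := strictConcaveOn_log_Ioi.concaveOn.2 (Set.mem_Ioi.mpr htc)
        (Set.mem_Ioi.mpr hy) hlam0 hlam1' (by ring)
      simp only [smul_eq_mul] at hconc
      have e1 : lam * (t + c) + (1 - lam) * (s * (t + c) / c) = t + s := by
        rw [hlam1, hlam]
        field_simp
      rw [e1] at hconc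
      have e2 : Real.log (s * (t + c) / c) = Real.log s + Real.log (t + c) + 1 := by
        rw [Real.log_div (by positivity) hc0.ne', Real.log_mul hs0.ne' htc.ne', hlogc]
        ring
      rw [e2] at hconc
      nlinarith
  have h2 : ∫ s in (0 : ℝ)..1, ((Real.log (t + c) + (1 - lam)) + (1 - lam) * Real.log s) =
      Real.log (t + c) := by
    rw [intervalIntegral.integral_add (by simp)
      (intervalIntegral.intervalIntegrable_log'.const_mul _), intervalIntegral.integral_const,
      intervalIntegral.integral_const_mul, integral_log]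
    simp
    ring
  linarith

/-- `t + 1/e ≤ exp (g t - 1) ≤ t + 1/2` for `t ≥ 0`. -/
theorem exp_g_bounds (t : ℝ) (ht : 0 ≤ t) :
    t + Real.exp (-1) ≤ Real.exp (g t - 1) ∧ Real.exp (g t - 1) ≤ t + 1 / 2 := by
  constructor
  · have h := Real.exp_le_exp.mpr (g_lower t ht)
    rwa [Real.exp_log (by positivity)] at h
  · have h := Real.exp_le_exp.mpr (g_upper t ht)
    rwa [Real.exp_log (by positivity)] at h

theorem approx_epni (η NA NB NC : ℝ) (h0 : 0 ≤ η) (h1 : η ≤ 1) (hA : 0 ≤ NA) (hB : 0 ≤ NB)
    (hC : 0 ≤ NC)
    (hepi : η * Real.exp (g NA) + (1 - η) * Real.exp (g NB) ≤ Real.exp (g NC)) :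
    η * NA + (1 - η) * NB - (1 / 2 - Real.exp (-1)) ≤ NC := by
  have e : ∀ t, Real.exp (g t) = Real.exp 1 * Real.exp (g t - 1) := by
    intro t
    rw [← Real.exp_add]
    congr 1
    ring
  rw [e NA, e NB, e NC] at hepi
  have hpos : 0 < Real.exp 1 := Real.exp_pos _
  have h2 : η * Real.exp (g NA - 1) + (1 - η) * Real.exp (g NB - 1) ≤ Real.exp (g NC - 1) := by
    have : Real.exp 1 * (η * Real.exp (g NA - 1) + (1 - η) * Real.exp (g NB - 1)) ≤
        Real.exp 1 * Real.exp (g NC - 1) := by nlinarith
    exact le_of_mul_le_mul_left this hpos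
  have a := (exp_g_bounds NA hA).1
  have b := (exp_g_bounds NB hB).1
  have c := (exp_g_bounds NC hC).2
  have h3 : η * (NA + Real.exp (-1)) ≤ η * Real.exp (g NA - 1) := mul_le_mul_of_nonneg_left a h0
  have h4 : (1 - η) * (NB + Real.exp (-1)) ≤ (1 - η) * Real.exp (g NB - 1) :=
    mul_le_mul_of_nonneg_left b (by linarith)
  nlinarith

end Vale.Agent.P369
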