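import Mathlib

namespace Vale.Agent.P369

/-- The bosonic entropy function `g(t) = (t+1) log (t+1) - t log t` (with `0 log 0 = 0`). -/
noncomputable def g (t : ℝ) : ℝ := (t + 1) * Real.log (t + 1) - t * Real.log t

end Vale.Agent.P369
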